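import Vale.Agent.P280.T.Ext2

/-! Row R4, part 3: the extension theorem. -/

namespace Vale.Agent.P280.T

open DirectSum Vale.Agent.P280.H127

section
variable {R : Type} [CommRing R] [Algebra ℂ R] {𝒜 : ℕ × ℤ → Submodule ℂ R} [GradedAlgebra 𝒜]

/-- Lower bound of all slopes. -/
theorem slope_le_of_ne (hX : IsTorusManifold 𝒜) {μ : ℤ}
    (hlow : ∀ m, ∀ h ∈ 𝒜 (1, m), h ≠ 0 → μ ≤ m) :
    ∀ (d : ℕ) (m : ℤ), ∀ h ∈ 𝒜 (d, m), h ≠ 0 → d • μ ≤ m := by
  intro d m h hh hne
  exact slope_le hX.gen (AddMonoidHom.id ℤ) μ (⊥ : Ideal R)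
    (fun m h hh h0 => hlow m h hh (fun h' => h0 (h' ▸ Ideal.zero_mem _))) d m h hh
    (fun h0 => hne ((Submodule.mem_bot R).1 h0))

/-- A point where `f`, of lowest slope, does not vanish, and all elements of higher slope do. -/
theorem exists_bottom (hX : IsTorusManifold 𝒜) {f : R} {μ : ℤ} (hf : f ∈ 𝒜 (1, μ)) (hf0 : f ≠ 0)
    (hlow : ∀ m, ∀ h ∈ 𝒜 (1, m), h ≠ 0 → μ ≤ m) :
    ∃ y : R →ₐ[ℂ] ℂ, y f ≠ 0 ∧ ∀ m, m ≠ μ → ∀ h ∈ 𝒜 (1, m), y h = 0 := by
  have := hX.finiteType
  have := hX.domain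
  have hfr : f ∉ (⊥ : Ideal R).radical := by
    rintro ⟨n, hn⟩
    exact hf0 (eq_zero_of_pow_eq_zero ((Submodule.mem_bot R).1 hn))
  obtain ⟨z, -, hz⟩ := exists_point hfr
  obtain ⟨y, hy1, hy2⟩ := exists_limit 𝒜 z (slopeHom (AddMonoidHom.id ℤ) μ) (by
    rintro ⟨d, m⟩ h hh hne
    rw [slopeHom_apply, sub_nonneg]
    exact slope_le_of_ne hX hlow d m h hh (fun h0 => hne (by rw [h0, map_zero])))
  refine ⟨y, ?_, ?_⟩
  · rw [hy1 (1, μ) f hf (by rw [slopeHom_apply, one_smul]; exact sub_self _)]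
    exact hz
  · intro m hm h hh
    apply hy2 (1, m) h hh
    rw [slopeHom_apply, one_smul]
    intro h0
    exact hm (sub_eq_zero.1 h0)

/-- The vertex has height at least two if `R ≠ ℂ[f]`. -/
theorem two_le_height (hX : IsTorusManifold 𝒜) {f : R} {μ : ℤ} (hf : f ∈ 𝒜 (1, μ)) (hf0 : f ≠ 0)
    (hlow : ∀ m, ∀ h ∈ 𝒜 (1, m), h ≠ 0 → μ ≤ m) {m1 : ℤ} (hm1 : m1 ≠ μ) {h1 : R}
    (hh1 : h1 ∈ 𝒜 (1, m1)) (hne1 : h1 ≠ 0) {e : R →ₐ[ℂ] ℂ} (he : IsVertex 𝒜 e) :
    ¬ (mx e).height ≤ 1 := by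
  have := hX.domain
  obtain ⟨y, hyf, hy0⟩ := exists_bottom hX hf hf0 hlow
  obtain ⟨ψ, hψ⟩ := exists_algHom 𝒜
    (fun i => (Polynomial.monomial i.1 : ℂ →ₗ[ℂ] Polynomial ℂ).comp y.toLinearMap)
    (by simp)
    (by
      rintro ⟨d, m⟩ ⟨d', m'⟩ a _ b _
      simp [Polynomial.monomial_mul_monomial])
  have hev : ∀ x, (ψ x).eval 0 = e x := by
    have h1 : (Polynomial.aeval (0 : ℂ)).comp ψ = e := by
      apply algHom_ext_graded 𝒜
      rintro ⟨d, m⟩ a ha
      rw [AlgHom.comp_apply, hψ (d, m) a ha]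
      by_cases hd : d = 0
      · subst hd
        obtain ⟨c, rfl⟩ := hX.zero m a ha
        simp
      · rw [he d m (Nat.pos_of_ne_zero hd) a ha]
        simp [Polynomial.aeval_monomial, zero_pow hd]
    intro x
    rw [← h1, AlgHom.comp_apply, Polynomial.aeval_def, Polynomial.eval₂_eq_eval_map]
    simp
  let P : Ideal R := RingHom.ker ψ
  have hP : P.IsPrime := RingHom.ker_isPrime ψ
  have hPe : P ≤ mx e := by
    intro x hx
    rw [mem_mx, ← hev x, (RingHom.mem_ker).1 hx, Polynomial.eval_zero]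
  have h1P : h1 ∈ P := by
    rw [RingHom.mem_ker, hψ (1, m1) h1 hh1]
    simp [hy0 m1 hm1 h1 hh1]
  have hfP : f ∉ P := by
    rw [RingHom.mem_ker, hψ (1, μ) f hf]
    simp [hyf]
  have hfe : f ∈ mx e := mem_mx.2 (he 1 μ one_pos f hf)
  have hlt : P < mx e := lt_of_le_of_ne hPe (fun h => hfP (h ▸ hfe))
  have hb : (⊥ : Ideal R).IsPrime := Ideal.isPrime_bot
  have hbot : (⊥ : Ideal R) < P := by
    rw [bot_lt_iff_ne_bot]
    intro h
    rw [h] at h1P
    exact hne1 ((Submodule.mem_bot R).1 h1P)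
  intro hle
  have h2 := Ideal.height_add_one_le_of_lt_of_isPrime hbot
  have h3 := Ideal.height_add_one_le_of_lt_of_isPrime hlt
  have h4 : (1 : ℕ∞) ≤ P.height := le_trans (by simp) h2
  have h5 : (1 : ℕ∞) + 1 ≤ 1 := (add_le_add_left h4 1).trans (h3.trans hle)
  exact absurd h5 (by decide)

/-- Minimal primes of the conductor have height at most one. -/
theorem cond_height [IsDomain R] [IsNoetherianRing R] [IsIntegrallyClosed R] {g : R} (hg0 : g ≠ 0)
    (D : R → R) {Q : Ideal R} (hQ : Q ∈ (cond g D).minimalPrimes) : Q.height ≤ 1 := by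
  refine Vale.Agent.P280.H939.height_le_one_of_conductor (K := FractionRing R)
    (D := fun h => algebraMap R (FractionRing R) (D h) / algebraMap R (FractionRing R) g)
    (I := cond g D) ?_ hQ
  intro r
  have hgK : algebraMap R (FractionRing R) g ≠ 0 := by
    intro h
    apply hg0
    exact (IsFractionRing.injective R (FractionRing R)) (by rw [h, map_zero])
  rw [mem_cond]
  refine forall_congr' (fun h => ?_)
  constructor
  · rintro ⟨s, hs⟩
    refine ⟨s, ?_⟩
    rw [← mul_div_assoc, ← map_mul, hs, map_mul, mul_comm, mul_div_assoc, div_self hgK,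
      mul_one]
  · rintro ⟨s, hs⟩
    refine ⟨s, IsFractionRing.injective R (FractionRing R) ?_⟩
    rw [map_mul, map_mul, hs]
    field_simp

/-- **Extension theorem**: a derivation `D / f ^ N` of degree zero and weight `-a` of `R[1/f]`
maps `R` to `R`, if all tangent weights are at most `a`. -/
theorem extension (hX : IsTorusManifold 𝒜) {a : ℤ} (ha : 0 < a)
    (hbound : ∀ (q : R →ₐ[ℂ] ℂ) (ν : ℤ), ¬ IsVertex 𝒜 q → IsFixed 𝒜 q ν →
      ∀ χ, TangentWeight 𝒜 q ν χ → χ ≤ a)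
    {f : R} {μ : ℤ} (hf : f ∈ 𝒜 (1, μ)) (hf0 : f ≠ 0)
    (hone : ∀ h ∈ 𝒜 (1, μ), ∃ c : ℂ, h = c • f)
    (hlow : ∀ m, ∀ h ∈ 𝒜 (1, m), h ≠ 0 → μ ≤ m) (N : ℕ) (D : Derivation ℂ R R)
    (hD : ∀ (d : ℕ) (m : ℤ), ∀ h ∈ 𝒜 (d, m), D h ∈ 𝒜 (d + N, m + N • μ - a)) :
    ∀ h, f ^ N ∣ D h := by
  have := hX.finiteType
  have := hX.domain
  have := hX.normal
  have : IsNoetherianRing R := Algebra.FiniteType.isNoetherianRing ℂ R
  have hg : f ^ N ∈ 𝒜 (N, N • μ) := by
    have h1 := SetLike.pow_mem_graded N hf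
    have h2 : (N • ((1, μ) : ℕ × ℤ)) = (N, N • μ) := by
      ext
      · simp
      · simp
    rwa [h2] at h1
  have hg0 : f ^ N ≠ 0 := pow_ne_zero N hf0
  have hgc : f ^ N ∈ cond (f ^ N) D := fun h => dvd_mul_right _ _
  suffices h1 : (1 : R) ∈ cond (f ^ N) D by
    intro h
    have := h1 h
    rwa [one_mul] at this
  by_contra hcon
  by_cases hne : ∃ z : R →ₐ[ℂ] ℂ, (∀ x ∈ cond (f ^ N) D, z x = 0) ∧ ¬ IsVertex 𝒜 z
  · obtain ⟨ν, q, hqv, hqa, hfix, hslope, -⟩ := exists_lowest hX (AddMonoidHom.id ℤ)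
      (I := cond (f ^ N) D)
      (fun x hx i => cond_homogeneous (𝒜 := 𝒜) hg D.toLinearMap
        (fun i h hh => ⟨_, hD i.1 i.2 h hh⟩) hx i) hne
    have hfix' : IsFixed 𝒜 q ν := fun d m h hh h0 => hfix d m h hh h0
    have hqf : q f = 0 := by
      have h1 := hqa _ hgc
      rw [map_pow] at h1
      exact eq_zero_of_pow_eq_zero h1
    obtain ⟨g1, hg1, hg1'⟩ := exists_deg_one_ne hX.gen hqv hfix'
    have hμν : μ < ν := by
      apply lt_of_le_of_ne
      · exact hlow ν g1 hg1 (fun h0 => hg1' (by rw [h0, map_zero]))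
      · rintro rfl
        obtain ⟨c, rfl⟩ := hone g1 hg1
        apply hg1'
        rw [map_smul, hqf, smul_zero]
    refine ext_local hX ha hqv hfix' (hbound q ν hqv hfix') (g := f ^ N) (γ := tw ν (N, N • μ))
      (mem_coarse hg rfl) hg0 D ?_ ?_ hqa ?_
    · intro k h hh
      refine coarse_induction (P := fun h => D h ∈
        coarse 𝒜 (tw ν) (k + tw ν (N, N • μ) - a)) ?_ ?_ ?_ hh
      · rw [map_zero]
        exact Submodule.zero_mem _
      · intro x y hx hy
        rw [map_add]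
        exact Submodule.add_mem _ hx hy
      · rintro ⟨d, m⟩ hk x hx
        refine mem_coarse (hD d m x hx) ?_
        rw [tw_apply] at hk ⊢
        rw [tw_apply, ← hk]
        simp only [add_smul]
        ring
    · intro w hw x hx
      refine coarse_induction (P := fun x => x ∈ (cond (f ^ N) D).radical) ?_ ?_ ?_ hx
      · exact Ideal.zero_mem _
      · intro x y hx hy
        exact Ideal.add_mem _ hx hy
      · rintro ⟨d, m⟩ hk x hx
        by_contra h0
        have h1 := hslope d m x hx h0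
        rw [tw_apply] at hk
        have h2 : (AddMonoidHom.id ℤ) m = m := rfl
        rw [h2] at h1
        linarith
    · refine ⟨μ - ν, by linarith, f, mem_coarse hf ?_, hf0⟩
      rw [tw_apply, one_smul]
  · push Not at hne
    by_cases hR : ∀ m, ∀ h ∈ 𝒜 (1, m), h ≠ 0 → m = μ
    · -- `D = 0`
      have hD1 : ∀ m, ∀ h ∈ 𝒜 (1, m), D h = 0 := by
        intro m h hh
        by_contra h0
        have hh0 : h ≠ 0 := by
          rintro rfl
          exact h0 (map_zero D)
        have hm := hR m h hh hh0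
        subst hm
        have h2 := slope_le_of_ne hX hlow _ _ _ (hD 1 m h hh) h0
        rw [add_smul, one_smul] at h2
        linarith
      have hD0 : ∀ x : R, D x = 0 := by
        intro x
        have hx : x ∈ Algebra.adjoin ℂ {h : R | ∃ m : ℤ, h ∈ 𝒜 (1, m)} := by
          rw [hX.gen]; trivial
        induction hx using Algebra.adjoin_induction with
        | mem x hx =>
          obtain ⟨m, hm⟩ := hx
          exact hD1 m x hm
        | algebraMap r => exact D.map_algebraMap r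
        | add x y _ _ hx hy => rw [map_add, hx, hy, add_zero]
        | mul x y _ _ hx hy => rw [D.leibniz, hx, hy, smul_zero, smul_zero, add_zero]
      apply hcon
      intro h
      rw [hD0, mul_zero]
      exact dvd_zero _
    · push Not at hR
      obtain ⟨m1, h1, hh1, hne1, hm1⟩ := hR
      have hle : cond (f ^ N) D ≠ ⊤ := fun h => hcon (h ▸ Submodule.mem_top)
      obtain ⟨P, hP, hPle⟩ := Ideal.exists_le_maximal _ hle
      obtain ⟨e, rfl⟩ := exists_hom P
      have hev : IsVertex 𝒜 e := hne e (fun x hx => mem_mx.1 (hPle hx))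
      obtain ⟨Q, hQ, hQm⟩ := Ideal.exists_minimalPrimes_le hPle
      have hQp : Q.IsPrime := hQ.isPrime
      have hQe : Q = mx e := by
        by_contra hne'
        obtain ⟨z, hz, hze⟩ := exists_hom_ne hQp hne' hQm
        apply hze
        have hzv : IsVertex 𝒜 z := hne z (fun x hx => mem_mx.1 (hz (hQ.1.2 hx)))
        apply algHom_ext_graded 𝒜
        rintro ⟨d, m⟩ x hx
        by_cases hd : d = 0
        · subst hd
          obtain ⟨c, rfl⟩ := hX.zero m x hx
          rw [AlgHom.commutes, AlgHom.commutes]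
        · rw [hzv d m (Nat.pos_of_ne_zero hd) x hx, hev d m (Nat.pos_of_ne_zero hd) x hx]
      have hQh := cond_height hg0 D hQ
      rw [hQe] at hQh
      exact two_le_height hX hf hf0 hlow hm1 hh1 hne1 hev hQh

end

end Vale.Agent.P280.T
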