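import Vale.Agent.P280.T.Tools2
import Vale.Agent.P280.H127.Dual
import Vale.Agent.P280.H939.R1
import Vale.Agent.P271.H879.RegDom

/-! Row R4, part 1: the conductor of a derivation, homogeneity; local algebra at a regular fixed
point. -/

namespace Vale.Agent.P280.T

open DirectSum Vale.Agent.P280.H127

section cond
variable {ι R : Type} [AddCommMonoid ι] [DecidableEq ι] [CommRing R] [Algebra ℂ R]
variable {𝒜 : ι → Submodule ℂ R} [GradedAlgebra 𝒜]

/-- All components of a multiple of a homogeneous element are multiples of it. -/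
theorem dvd_component {g z : R} {j : ι} (hg : g ∈ 𝒜 j) (hz : g ∣ z) (k : ι) :
    g ∣ ((DirectSum.decompose 𝒜 z) k : R) := by
  obtain ⟨y, rfl⟩ := hz
  induction y using DirectSum.Decomposition.inductionOn 𝒜 with
  | zero => simp
  | @homogeneous i a =>
    by_cases hk : j + i = k
    · subst hk
      rw [DirectSum.decompose_of_mem_same 𝒜 (SetLike.mul_mem_graded hg a.2)]
      exact dvd_mul_right _ _
    · rw [DirectSum.decompose_of_mem_ne 𝒜 (SetLike.mul_mem_graded hg a.2) hk]
      exact dvd_zero _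
  | add a b ha hb =>
    rw [mul_add, DirectSum.decompose_add, DirectSum.add_apply, Submodule.coe_add]
    exact dvd_add ha hb

/-- The conductor `{r : g ∣ r D(h) for all h}`. -/
def cond (g : R) (D : R → R) : Ideal R where
  carrier := {r | ∀ h, g ∣ r * D h}
  zero_mem' := by
    intro h
    rw [zero_mul]
    exact dvd_zero _
  add_mem' := by
    intro a b ha hb h
    rw [add_mul]
    exact dvd_add (ha h) (hb h)
  smul_mem' := by
    intro c a ha h
    rw [smul_eq_mul, mul_assoc]
    exact dvd_mul_of_dvd_right (ha h) c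

theorem mem_cond {g : R} {D : R → R} {r : R} : r ∈ cond g D ↔ ∀ h, g ∣ r * D h := Iff.rfl

end cond

section condhom
variable {ι R : Type} [AddCancelCommMonoid ι] [DecidableEq ι] [CommRing R] [Algebra ℂ R]
variable {𝒜 : ι → Submodule ℂ R} [GradedAlgebra 𝒜]

/-- The conductor is homogeneous. -/
theorem cond_homogeneous {g : R} {j : ι} (hg : g ∈ 𝒜 j) (D : R →ₗ[ℂ] R)
    (hD : ∀ i, ∀ h ∈ 𝒜 i, ∃ k, D h ∈ 𝒜 k) {x : R} (hx : x ∈ cond g D) (i : ι) :
    ((DirectSum.decompose 𝒜 x) i : R) ∈ cond g D := by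
  rw [mem_cond] at hx ⊢
  intro h
  induction h using DirectSum.Decomposition.inductionOn 𝒜 with
  | zero => simp
  | @homogeneous l a =>
    obtain ⟨k, hk⟩ := hD l a a.2
    have h1 := dvd_component (𝒜 := 𝒜) hg (hx (a : R)) (i + k)
    rwa [DirectSum.coe_decompose_mul_add_of_right_mem 𝒜 hk] at h1
  | add a b ha hb =>
    rw [map_add, mul_add]
    exact dvd_add ha hb

end condhom

section loc
variable {R : Type} [CommRing R] [Algebra ℂ R]

/-- A tangent vector applied to products. -/
theorem tan_mul {q : R →ₐ[ℂ] ℂ} {v : R →ₗ[ℂ] ℂ} (hv : Tan q v) (a b : R) (hb : q b = 0) :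
    v (a * b) = q a * v b := by
  rw [hv, hb, zero_mul, add_zero]

/-- At a regular point: a prime of height at most one containing `u` outside `𝔪 ^ 2` is locally
generated by `u`. -/
theorem local_principal [IsNoetherianRing R] [IsDomain R] {q : R →ₐ[ℂ] ℂ}
    (hr : IsRegularLocalRing (Localization.AtPrime (mx q))) {u : R} (hu : u ∈ mx q)
    {v : R →ₗ[ℂ] ℂ} (hv : Tan q v) (hvu : v u ≠ 0)
    {Q : Ideal R} (hQ : Q.IsPrime) (hQm : Q ≤ mx q) (hQh : Q.height ≤ 1) (huQ : u ∈ Q)
    {x : R} (hx : x ∈ Q) : ∃ t y : R, q t ≠ 0 ∧ t * x = y * u := by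
  have hmap : Ideal.map (algebraMap R (Localization.AtPrime (mx q))) (mx q) =
      IsLocalRing.maximalIdeal (Localization.AtPrime (mx q)) :=
    Localization.AtPrime.map_eq_maximalIdeal
  have hx0 : algebraMap R (Localization.AtPrime (mx q)) u ∈
      IsLocalRing.maximalIdeal (Localization.AtPrime (mx q)) := by
    rw [← hmap]
    exact Ideal.mem_map_of_mem _ hu
  have hx2 : algebraMap R (Localization.AtPrime (mx q)) u ∉
      IsLocalRing.maximalIdeal (Localization.AtPrime (mx q)) ^ 2 := by
    rw [← hmap, ← Ideal.map_pow]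
    intro h
    obtain ⟨m, hm, h1⟩ := (IsLocalization.algebraMap_mem_map_algebraMap_iff (mx q).primeCompl
      (Localization.AtPrime (mx q)) _ u).1 h
    have h2 := hv.sq h1
    rw [tan_mul hv m u (mem_mx.1 hu)] at h2
    have h3 : q m ≠ 0 := fun h => hm (mem_mx.2 h)
    exact (mul_ne_zero h3 hvu) h2
  have hprime := Vale.Agent.P271.H879.Reg.prime_of_notMem_sq hx0 hx2
  have hsp : (Ideal.span {algebraMap R (Localization.AtPrime (mx q)) u}).IsPrime :=
    (Ideal.span_singleton_prime hprime.ne_zero).2 hprime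
  let P' : Ideal R := Ideal.comap (algebraMap R (Localization.AtPrime (mx q)))
    (Ideal.span {algebraMap R (Localization.AtPrime (mx q)) u})
  have hP' : P'.IsPrime := Ideal.comap_isPrime _ _
  have hmemP' : ∀ x : R, x ∈ P' ↔ ∃ t y : R, q t ≠ 0 ∧ t * x = y * u := by
    intro x
    have h1 : Ideal.span {algebraMap R (Localization.AtPrime (mx q)) u} =
        Ideal.map (algebraMap R (Localization.AtPrime (mx q))) (Ideal.span {u}) := by
      rw [Ideal.map_span, Set.image_singleton]
    rw [Ideal.mem_comap, h1, IsLocalization.algebraMap_mem_map_algebraMap_iff (mx q).primeCompl]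
    constructor
    · rintro ⟨m, hm, h⟩
      obtain ⟨y, hy⟩ := Ideal.mem_span_singleton'.1 h
      exact ⟨m, y, fun h => hm (mem_mx.2 h), hy.symm⟩
    · rintro ⟨t, y, ht, h⟩
      exact ⟨t, fun h => ht (mem_mx.1 h), Ideal.mem_span_singleton'.2 ⟨y, h.symm⟩⟩
  have hPQ : P' ≤ Q := by
    intro x hx
    obtain ⟨t, y, ht, h⟩ := (hmemP' x).1 hx
    have h1 : t * x ∈ Q := by
      rw [h]
      exact Ideal.mul_mem_left _ _ huQ
    rcases hQ.mem_or_mem h1 with h2 | h2
    · exact absurd (mem_mx.1 (hQm h2)) ht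
    · exact h2
  have huP : u ∈ P' := (hmemP' u).2 ⟨1, 1, by simp, rfl⟩
  have hu0 : u ≠ 0 := by
    rintro rfl
    exact hvu (map_zero v)
  have hbot : (⊥ : Ideal R) < P' := by
    rw [bot_lt_iff_ne_bot]
    intro h
    rw [h] at huP
    exact hu0 ((Submodule.mem_bot R).1 huP)
  have heq : P' = Q := by
    by_contra hne
    have hlt : P' < Q := lt_of_le_of_ne hPQ hne
    have hb : (⊥ : Ideal R).IsPrime := Ideal.isPrime_bot
    have h1 := Ideal.height_add_one_le_of_lt_of_isPrime hbot
    have h2 := Ideal.height_add_one_le_of_lt_of_isPrime hlt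
    have h3 : (1 : ℕ∞) ≤ P'.height := le_trans (by simp) h1
    have h4 : (1 : ℕ∞) + 1 ≤ 1 := (add_le_add_left h3 1).trans (h2.trans hQh)
    exact absurd h4 (by decide)
  rw [← heq] at hx
  exact (hmemP' x).1 hx

end loc

end Vale.Agent.P280.T
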