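import Vale.Agent.P280.T.Ext1

/-! Row R4, part 2: a derivation of negative weight has no poles. -/

namespace Vale.Agent.P280.T

open DirectSum Vale.Agent.P280.H127

section div
variable {Λ R : Type} [AddCommGroup Λ] [DecidableEq Λ] [CommRing R] [IsDomain R] [Algebra ℂ R]
variable {𝒜 : Λ → Submodule ℂ R} [GradedAlgebra 𝒜]

/-- Division by a homogeneous element in a graded domain. -/
theorem div_mem {g x : R} {γ j : Λ} (hg : g ∈ 𝒜 γ) (hg0 : g ≠ 0) (h : g * x ∈ 𝒜 (γ + j)) :
    x ∈ 𝒜 j := by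
  classical
  have h1 : ∀ k, k ≠ j → cp 𝒜 k x = 0 := by
    intro k hk
    have h2 := cp_mul_left 𝒜 hg x (γ + k)
    rw [add_sub_cancel_left, cp_of_mem_ne 𝒜 h (fun h' => hk (add_left_cancel h').symm)] at h2
    rcases mul_eq_zero.1 h2.symm with h3 | h3
    · exact absurd h3 hg0
    · exact h3
  have h2 : x = cp 𝒜 j x := by
    have h3 : x = ∑ i ∈ (DirectSum.decompose 𝒜 x).support,
        ((DirectSum.decompose 𝒜 x) i : R) := (DirectSum.sum_support_decompose 𝒜 x).symm
    by_cases hj : j ∈ (DirectSum.decompose 𝒜 x).support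
    · rw [Finset.sum_eq_single_of_mem j hj] at h3
      · exact h3
      · intro b _ hb
        exact h1 b hb
    · rw [Finset.sum_eq_zero] at h3
      · rw [h3]
        unfold cp
        rw [DirectSum.decompose_zero]
        rfl
      · intro b hb
        apply h1 b
        rintro rfl
        exact hj hb
  rw [h2]
  exact cp_mem 𝒜 j x

end div

section nak
variable {R : Type} [CommRing R] [IsDomain R] [Algebra ℂ R]

/-- The final step: a derivation `E` (given up to nothing) whose values on local parameters are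
locally divisible by `u`, has all its values locally divisible by `u`. -/
theorem nakayama_step [IsNoetherianRing R] {q : R →ₐ[ℂ] ℂ} (E : R →ₗ[ℂ] R)
    (hE : ∀ a b, E (a * b) = a * E b + b * E a) {n : ℕ} {u : Fin n → R} {s : R}
    (hs : q s = 1) (hsu : ∀ x ∈ mx q, s * x ∈ Ideal.span (Set.range u))
    (hu : ∀ i, q (u i) = 0) {u0 t : R} (ht : q t = 1) (htE : ∀ i, u0 ∣ t * E (u i)) :
    ∃ r, q r = 1 ∧ ∀ h, u0 ∣ r * E h := by
  have hE1 : E 1 = 0 := by
    have := hE 1 1
    rw [mul_one, one_mul] at this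
    exact left_eq_add.mp this
  have hEc : ∀ c : ℂ, E (algebraMap ℂ R c) = 0 := by
    intro c
    rw [Algebra.algebraMap_eq_smul_one, map_smul, hE1, smul_zero]
  let 𝔢 : Ideal R := Ideal.span (Set.range E)
  have hgen : ∀ h, t * s * E h ∈ Ideal.span {u0} ⊔ mx q • 𝔢 := by
    intro h
    have h1 := hsu _ (sub_q_mem q h)
    obtain ⟨r, hr⟩ := Ideal.mem_span_range_iff_exists_fun.mp h1
    have h2 : E (s * (h - algebraMap ℂ R (q h))) =
        s * E h + (h - algebraMap ℂ R (q h)) * E s := by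
      rw [hE, map_sub, hEc, sub_zero]
    have h3 : E (∑ i, r i * u i) = ∑ i, (r i * E (u i) + u i * E (r i)) := by
      rw [map_sum]
      exact Finset.sum_congr rfl (fun i _ => hE _ _)
    rw [hr, h2] at h3
    have h4 : t * s * E h = ∑ i, (r i * (t * E (u i)) + u i * (t * E (r i))) -
        (h - algebraMap ℂ R (q h)) * (t * E s) := by
      have : t * s * E h = t * (s * E h + (h - algebraMap ℂ R (q h)) * E s) -
        (h - algebraMap ℂ R (q h)) * (t * E s) := by ring
      rw [this, h3, Finset.mul_sum]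
      congr 1
      exact Finset.sum_congr rfl (fun i _ => by ring)
    rw [h4]
    have hE' : ∀ (y z c : R), y ∈ mx q → y * (c * E z) ∈ Ideal.span {u0} ⊔ mx q • 𝔢 := by
      intro y z c hy
      apply Ideal.mem_sup_right
      have : y * (c * E z) = y • (c * E z) := rfl
      rw [this]
      exact Submodule.smul_mem_smul hy (Ideal.mul_mem_left _ _ (Ideal.subset_span ⟨z, rfl⟩))
    refine Ideal.sub_mem _ (Ideal.sum_mem _ fun i _ => Ideal.add_mem _ ?_ ?_) ?_
    · apply Ideal.mem_sup_left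
      exact Ideal.mul_mem_left _ _ (Ideal.mem_span_singleton.2 (htE i))
    · exact hE' _ _ _ (mem_mx.2 (hu i))
    · exact hE' _ _ _ (sub_q_mem q h)
  have hall : ∀ x ∈ 𝔢, t * s * x ∈ Ideal.span {u0} ⊔ mx q • 𝔢 := by
    intro x hx
    induction hx using Submodule.span_induction with
    | mem x hx =>
      obtain ⟨h, rfl⟩ := hx
      exact hgen h
    | zero =>
      rw [mul_zero]
      exact Ideal.zero_mem _
    | add x y _ _ hx hy =>
      rw [mul_add]
      exact Ideal.add_mem _ hx hy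
    | smul c x _ hx =>
      have h1 : t * s * (c • x) = c * (t * s * x) := by
        rw [smul_eq_mul]
        ring
      rw [h1]
      exact Ideal.mul_mem_left _ _ hx
  have hle : 𝔢 ≤ Ideal.span {u0} ⊔ mx q • 𝔢 := by
    intro x hx
    have h1 : x = t * s * x + (1 - t * s) • x := by
      rw [smul_eq_mul]
      ring
    rw [h1]
    refine Ideal.add_mem _ (hall x hx) (Ideal.mem_sup_right (Submodule.smul_mem_smul ?_ hx))
    rw [mem_mx, map_sub, map_one, map_mul, hs, ht]
    ring
  obtain ⟨r, hr, hr'⟩ := Submodule.exists_sub_one_mem_and_smul_le_of_fg_of_le_sup (I := mx q)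
    (N := Ideal.span {u0}) (N' := 𝔢) (P := 𝔢) (IsNoetherian.noetherian _) le_rfl hle
  refine ⟨r, ?_, fun h => ?_⟩
  · rw [mem_mx, map_sub, map_one] at hr
    exact sub_eq_zero.mp hr
  · have h1 : r * E h ∈ Ideal.span {u0} :=
      hr' (Submodule.smul_mem_pointwise_smul _ r _ (Ideal.subset_span ⟨h, rfl⟩))
    exact Ideal.mem_span_singleton.1 h1

end nak

section main
variable {R : Type} [CommRing R] [Algebra ℂ R] {𝒜 : ℕ × ℤ → Submodule ℂ R} [GradedAlgebra 𝒜]

theorem ext_local (hX : IsTorusManifold 𝒜) {a : ℤ} (ha : 0 < a) {q : R →ₐ[ℂ] ℂ} {ν : ℤ}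
    (hq : ¬ IsVertex 𝒜 q) (hfix : IsFixed 𝒜 q ν) (hbound : ∀ χ, TangentWeight 𝒜 q ν χ → χ ≤ a)
    {g : R} {γ : ℤ} (hg : g ∈ coarse 𝒜 (tw ν) γ) (hg0 : g ≠ 0) (D : Derivation ℂ R R)
    (hD : ∀ k, ∀ h ∈ coarse 𝒜 (tw ν) k, D h ∈ coarse 𝒜 (tw ν) (k + γ - a))
    (hneg : ∀ w < 0, ∀ x ∈ coarse 𝒜 (tw ν) w, x ∈ (cond g D).radical)
    (hqa : ∀ x ∈ cond g D, q x = 0) (hex : ∃ w < 0, ∃ x ∈ coarse 𝒜 (tw ν) w, x ≠ 0) :
    False := by
  have := hX.finiteType
  have := hX.domain
  have := hX.normal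
  have : IsNoetherianRing R := Algebra.FiniteType.isNoetherianRing ℂ R
  have hF : Fix (coarse 𝒜 (tw ν)) q := fun w hw x hx => fixed_coarse hfix hx hw
  have hr : IsRegularLocalRing (Localization.AtPrime (mx q)) := hX.smooth q hq (mx q) rfl
  obtain ⟨n, u, wt, G, hn⟩ := exists_params hF hr
  obtain ⟨v, hv1, hv2, hv3, hv4⟩ := G.exists_dual hF hn.le
  -- all weights are at most `a`
  have hwt : ∀ i, wt i ≤ a := by
    intro i
    by_cases hi : wt i = 0
    · rw [hi]
      exact ha.le
    · apply hbound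
      refine tangentWeight_of_ne hfix hi (v := v i) (hv1 i) ?_ ?_
      · intro d m h hh hne
        by_contra hm
        apply hne
        apply hv3 i (m - d • ν) _ h (mem_coarse hh (tw_apply ν d m))
        intro h'
        apply hm
        rw [← h']
        abel
      · intro h0
        have := hv2 i i
        rw [h0] at this
        simp at this
  -- some weight is negative
  obtain ⟨i0, hi0⟩ : ∃ i, wt i < 0 := by
    by_contra hcon
    push Not at hcon
    obtain ⟨w, hw, x, hx, hx0⟩ := hex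
    have h1 := source hF G (C := {w | w < 0}) (by simp) (by
      intro w hw i
      have h1 := hcon i
      have h2 : w < 0 := hw
      show w - wt i < 0
      linarith) (w := w) hw
    rw [h1] at hx
    exact hx0 ((Submodule.mem_bot ℂ).1 hx)
  -- only one weight is negative
  have huniq : ∀ i, i ≠ i0 → 0 ≤ wt i := by
    intro i1 hne
    by_contra hlt
    push Not at hlt
    have hle : cond g D ≤ mx q := fun x hx => mem_mx.2 (hqa x hx)
    obtain ⟨Q, hQ, hQm⟩ := Ideal.exists_minimalPrimes_le hle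
    have hQp : Q.IsPrime := hQ.isPrime
    have hQh : Q.height ≤ 1 := by
      refine Vale.Agent.P280.H939.height_le_one_of_conductor (K := FractionRing R)
        (D := fun h => algebraMap R (FractionRing R) (D h) / algebraMap R (FractionRing R) g)
        (I := cond g D) ?_ hQ
      intro r
      have hgK : algebraMap R (FractionRing R) g ≠ 0 := by
        intro h
        apply hg0
        exact (IsFractionRing.injective R (FractionRing R)) (by rw [h, map_zero])
      rw [mem_cond]
      refine forall_congr' (fun h => ?_)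
      constructor
      · rintro ⟨s, hs⟩
        refine ⟨s, ?_⟩
        rw [← mul_div_assoc, ← map_mul, hs, map_mul, mul_comm, mul_div_assoc, div_self hgK,
          mul_one]
      · rintro ⟨s, hs⟩
        refine ⟨s, IsFractionRing.injective R (FractionRing R) ?_⟩
        rw [map_mul, map_mul, hs]
        field_simp
    have hrad : (cond g D).radical ≤ Q := by
      rw [hQp.radical_le_iff]
      exact hQ.1.2
    have hu0Q : u i0 ∈ Q := hrad (hneg _ hi0 _ (G.hom i0))
    have hu1Q : u i1 ∈ Q := hrad (hneg _ hlt _ (G.hom i1))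
    obtain ⟨t, y, ht, hty⟩ := local_principal hr (mem_mx.2 (G.zero i0)) (hv1 i0)
      (by rw [hv2 i0 i0, if_pos rfl]; exact one_ne_zero) hQp hQm hQh hu0Q hu1Q
    have h1 := congrArg (v i1) hty
    rw [tan_mul (hv1 i1) _ _ (G.zero i1), tan_mul (hv1 i1) _ _ (G.zero i0), hv2 i1 i1, hv2 i1 i0,
      if_pos rfl, if_neg hne, mul_one, mul_zero] at h1
    exact ht h1
  -- the pole order
  have hu0 : u i0 ≠ 0 := by
    intro h
    have := hv2 i0 i0
    rw [h, map_zero] at this
    simp at this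
  have hPex : ∃ k, ∃ s, q s ≠ 0 ∧ s * u i0 ^ k ∈ cond g D := by
    obtain ⟨k, hk⟩ := hneg _ hi0 _ (G.hom i0)
    exact ⟨k, 1, by simp, by rwa [one_mul]⟩
  classical
  obtain ⟨s1, hs1, hs1'⟩ := Nat.find_spec hPex
  have hmin : ∀ j, j < Nat.find hPex → ¬ ∃ s, q s ≠ 0 ∧ s * u i0 ^ j ∈ cond g D :=
    fun j hj => Nat.find_min hPex hj
  generalize hk : Nat.find hPex = k at hs1' hmin
  have hk0 : k ≠ 0 := by
    rintro rfl
    rw [pow_zero, mul_one] at hs1'
    exact hs1 (hqa _ hs1')
  obtain ⟨k', rfl⟩ := Nat.exists_eq_succ_of_ne_zero hk0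
  -- a homogeneous denominator
  obtain ⟨s, hs0, hsq, hs⟩ : ∃ s ∈ coarse 𝒜 (tw ν) 0, q s ≠ 0 ∧
      s * u i0 ^ (k' + 1) ∈ cond g D := by
    refine ⟨cp (coarse 𝒜 (tw ν)) 0 s1, cp_mem _ _ _, by rw [hF.q_cp]; exact hs1, ?_⟩
    have h1 : u i0 ^ (k' + 1) ∈ coarse 𝒜 (tw ν) ((k' + 1) • wt i0) :=
      SetLike.pow_mem_graded _ (G.hom i0)
    have h2 := cond_homogeneous (𝒜 := coarse 𝒜 (tw ν)) hg D.toLinearMap
      (fun i h hh => ⟨_, hD i h hh⟩) hs1' ((k' + 1) • wt i0)
    have h3 := cp_mul_right (coarse 𝒜 (tw ν)) h1 s1 ((k' + 1) • wt i0)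
    rw [sub_self] at h3
    rw [← h3]
    exact h2
  -- the derivation `E = s u ^ k D / g`
  have hEex : ∀ h, ∃ e, s * u i0 ^ (k' + 1) * D h = g * e := fun h => hs h
  choose E0 hE0 using hEex
  let E : R →ₗ[ℂ] R :=
    { toFun := E0
      map_add' := by
        intro x y
        apply mul_left_cancel₀ hg0
        rw [← hE0, mul_add, ← hE0, ← hE0, map_add, mul_add]
      map_smul' := by
        intro c x
        apply mul_left_cancel₀ hg0
        rw [← hE0, RingHom.id_apply, mul_smul_comm, ← hE0, D.map_smul, mul_smul_comm] }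
  have hE : ∀ h, s * u i0 ^ (k' + 1) * D h = g * E h := hE0
  have hEmul : ∀ a b, E (a * b) = a * E b + b * E a := by
    intro x y
    apply mul_left_cancel₀ hg0
    rw [← hE, Derivation.leibniz]
    simp only [smul_eq_mul]
    linear_combination x * hE y + y * hE x
  have hEdeg : ∀ j, ∀ h ∈ coarse 𝒜 (tw ν) j,
      E h ∈ coarse 𝒜 (tw ν) ((k' + 1) • wt i0 + (j - a)) := by
    intro j h hh
    apply div_mem hg hg0
    rw [← hE]
    have h1 : u i0 ^ (k' + 1) ∈ coarse 𝒜 (tw ν) ((k' + 1) • wt i0) :=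
      SetLike.pow_mem_graded _ (G.hom i0)
    have h2 := SetLike.mul_mem_graded (SetLike.mul_mem_graded hs0 h1) (hD j h hh)
    have h3 : 0 + (k' + 1) • wt i0 + (j + γ - a) = γ + ((k' + 1) • wt i0 + (j - a)) := by
      ring
    rw [h3] at h2
    exact h2
  have hEu : ∀ i, ∃ t, q t = 1 ∧ u i0 ∣ t * E (u i) := by
    intro i
    have h1 := hEdeg _ _ (G.hom i)
    have hneg' : (k' + 1) • wt i0 + (wt i - a) < 0 := by
      have h2 := hwt i
      have h3 : (k' + 1) • wt i0 < 0 := by
        rw [nsmul_eq_mul]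
        exact mul_neg_of_pos_of_neg (by positivity) hi0
      linarith
    obtain ⟨t, ht, ht'⟩ := lemmaA hF G (C := {w | w < 0}) (J := {i0}) (by
      intro w hw i hi
      have h2 : w < 0 := hw
      have h3 := huniq i hi
      constructor
      · show w - wt i < 0
        linarith
      · intro h4
        linarith) (w := (k' + 1) • wt i0 + (wt i - a)) hneg' h1
      (mem_mx.2 (hF _ hneg'.ne _ h1))
    rw [Set.image_singleton] at ht'
    exact ⟨t, ht, Ideal.mem_span_singleton.1 ht'⟩
  choose t ht ht' using hEu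
  obtain ⟨s', _, hs'1, hs'⟩ := G.gen
  obtain ⟨r, hr1, hr'⟩ := nakayama_step E hEmul hs'1 hs' G.zero (t := ∏ i, t i) (u0 := u i0)
    (by rw [map_prod]; exact Finset.prod_eq_one (fun i _ => ht i))
    (by
      intro i
      rw [← Finset.mul_prod_erase Finset.univ t (Finset.mem_univ i), mul_comm (t i), mul_assoc]
      exact dvd_mul_of_dvd_right (ht' i) _)
  apply hmin k' (Nat.lt_succ_self k')
  refine ⟨r * s, by rw [map_mul, hr1, one_mul]; exact hsq, ?_⟩
  rw [mem_cond]
  intro h
  obtain ⟨y, hy⟩ := hr' h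
  refine ⟨y, ?_⟩
  apply mul_left_cancel₀ hu0
  have h1 : u i0 * (r * s * u i0 ^ k' * D h) = r * (s * u i0 ^ (k' + 1) * D h) := by ring
  rw [h1, hE, mul_left_comm, hy]
  ring

end main

end Vale.Agent.P280.T
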